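import Vale.Agent.P246.R3.H816.Defs

/-! # P246.FreeFactor: ROW FLAT -/

namespace Vale.Agent.P246.R3.H411

open Vale.Agent.P246 Vale.Agent.P246.H816

section

variable {G H : Type} [Group G] [Group H] (ι : G →* H) (ρ : H →* G)

/-- the coefficient map -/
noncomputable def Ph : ZG H →+ (H →₀ ZG G) :=
  (Finsupp.liftAddHom (fun h : H => (Finsupp.singleAddHom (h * ι (ρ h)⁻¹)).comp
    ({ toFun := fun n : ℤ => (MonoidAlgebra.single (ρ h) n : ZG G)
       map_zero' := MonoidAlgebra.single_zero _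
       map_add' := fun x y => MonoidAlgebra.single_add _ x y } : ℤ →+ ZG G))).comp
    (MonoidAlgebra.coeffAddEquiv (R := ℤ) (M := H)).toAddMonoidHom

theorem Ph_single (h : H) (n : ℤ) : Ph ι ρ (MonoidAlgebra.single h n) =
    Finsupp.single (h * ι (ρ h)⁻¹) (MonoidAlgebra.single (ρ h) n : ZG G) := by
  have h0 : (MonoidAlgebra.coeffAddEquiv (R := ℤ) (M := H)) (MonoidAlgebra.single h n) =
      Finsupp.single h n := rfl
  simp only [Ph, AddMonoidHom.comp_apply, AddEquiv.coe_toAddMonoidHom, h0,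
    Finsupp.liftAddHom_apply_single, Finsupp.singleAddHom_apply]
  rfl

theorem rh_single (g : G) (n : ℤ) : rh ι (MonoidAlgebra.single g n) =
    (MonoidAlgebra.single (ι g) n : ZG H) := by
  simp [rh]

theorem Ph_mul (hr : ∀ g, ρ (ι g) = g) (s : ZG H) (r : ZG G) (ν : H) :
    Ph ι ρ (s * rh ι r) ν = Ph ι ρ s ν * r := by
  classical
  induction s using MonoidAlgebra.induction_linear with
  | zero => simp
  | add x y hx hy => rw [add_mul, map_add, Finsupp.add_apply, hx, hy, map_add, Finsupp.add_apply,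
      add_mul]
  | single h n =>
    induction r using MonoidAlgebra.induction_linear with
    | zero => simp
    | add x y hx hy => rw [map_add, mul_add, map_add, Finsupp.add_apply, hx, hy, mul_add]
    | single g m =>
      have h1 : h * ι g * ι (ρ (h * ι g))⁻¹ = h * ι (ρ h)⁻¹ := by
        rw [map_mul, hr, mul_inv_rev, map_mul, mul_assoc h, ← mul_assoc (ι g), ← map_mul,
          mul_inv_cancel, map_one, one_mul]
      rw [rh_single, MonoidAlgebra.single_mul_single, Ph_single, Ph_single, h1]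
      rw [Finsupp.single_apply, Finsupp.single_apply]
      split_ifs
      · rw [MonoidAlgebra.single_mul_single, map_mul, hr]
      · rw [zero_mul]

theorem Ph_sum (s : ZG H) : (Ph ι ρ s).sum (fun ν r => MonoidAlgebra.single ν (1 : ℤ) * rh ι r) =
    s := by
  classical
  induction s using MonoidAlgebra.induction_linear with
  | zero => simp
  | add x y hx hy =>
    rw [map_add, Finsupp.sum_add_index' (by simp) (by intro a b c; rw [map_add, mul_add]), hx, hy]
  | single h n =>
    rw [Ph_single, Finsupp.sum_single_index (by simp), rh_single,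
      MonoidAlgebra.single_mul_single]
    simp

theorem Ph_sum' (s : ZG H) (S : Finset H) (hS : (Ph ι ρ s).support ⊆ S) :
    ∑ ν ∈ S, MonoidAlgebra.single ν (1 : ℤ) * rh ι (Ph ι ρ s ν) = s := by
  rw [← Finsupp.sum_of_support_subset (Ph ι ρ s) hS
    (fun ν r => MonoidAlgebra.single ν (1 : ℤ) * rh ι r) (fun i _ => by simp)]
  exact Ph_sum ι ρ s

theorem lin_apply {a b : ℕ} (M : (Fin a → ZG G) →ₗ[ZG G] (Fin b → ZG G)) (x : Fin a → ZG G)
    (k : Fin b) : M x k = ∑ i, x i * M (Pi.single i 1) k := by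
  have h1 : x = ∑ i, x i • (Pi.single i (1 : ZG G) : Fin a → ZG G) := by
    funext j
    simp [Finset.sum_apply, Pi.single_apply]
  conv_lhs => rw [h1, map_sum]
  simp [Finset.sum_apply]

theorem up_apply {a b : ℕ} (M : (Fin a → ZG G) →ₗ[ZG G] (Fin b → ZG G)) (v : Fin a → ZG H)
    (k : Fin b) : H816.up (rh ι) M v k = ∑ i, v i * rh ι (M (Pi.single i 1) k) := by
  simp [H816.up, Fintype.linearCombination_apply, Finset.sum_apply]

end

theorem row : SpecFLAT := by
  classical
  intro G H _ _ ι ρ hr a b c M N hex v hv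
  have h1 : ∀ ν : H, M (fun i => Ph ι ρ (v i) ν) = 0 := by
    intro ν
    funext k
    have h2 : Ph ι ρ (H816.up (rh ι) M v k) ν = 0 := by rw [hv]; simp
    rw [up_apply, map_sum, Finsupp.finsetSum_apply] at h2
    rw [lin_apply, Pi.zero_apply]
    simpa only [Ph_mul ι ρ hr] using h2
  choose y hy using fun ν => hex _ (h1 ν)
  let S : Finset H := Finset.univ.biUnion (fun i => (Ph ι ρ (v i)).support)
  refine ⟨fun j => ∑ ν ∈ S, MonoidAlgebra.single ν (1 : ℤ) * rh ι (y ν j), ?_⟩
  funext k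
  rw [up_apply]
  have h3 : ∀ j : Fin c, (∑ ν ∈ S, MonoidAlgebra.single ν (1 : ℤ) * rh ι (y ν j)) *
      rh ι (N (Pi.single j 1) k) =
      ∑ ν ∈ S, MonoidAlgebra.single ν (1 : ℤ) * rh ι (y ν j * N (Pi.single j 1) k) := by
    intro j
    rw [Finset.sum_mul]
    exact Finset.sum_congr rfl fun ν _ => by rw [mul_assoc, map_mul]
  simp only [h3]
  rw [Finset.sum_comm]
  have h4 : ∀ ν ∈ S, (∑ j, MonoidAlgebra.single ν (1 : ℤ) * rh ι (y ν j * N (Pi.single j 1) k)) =
      MonoidAlgebra.single ν (1 : ℤ) * rh ι (Ph ι ρ (v k) ν) := by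
    intro ν _
    rw [← Finset.mul_sum, ← map_sum, ← lin_apply, hy]
  rw [Finset.sum_congr rfl h4]
  exact Ph_sum' ι ρ (v k) S (Finset.subset_biUnion_of_mem (fun i => (Ph ι ρ (v i)).support)
    (Finset.mem_univ k))

end Vale.Agent.P246.R3.H411
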